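import Vale.Agent.P147.Final

/-! The directional zero-one law for random walk in an iid elliptic environment, `d ≥ 3`. -/

namespace Vale.Agent.Results.P147.ZeroOne

open MeasureTheory ProbabilityTheory Vale.Agent.P147

theorem result (d : ℕ) (hd : 3 ≤ d) :
    (∃ Q : Kernel (Env d) (ℕ → Site d), IsQuenched Q) ∧
    ∀ (μ : Measure (Row d)) [IsProbabilityMeasure μ], (∀ᵐ p ∂μ, ∀ e, 0 < p.1 e) →
      ∀ Q : Kernel (Env d) (ℕ → Site d), IsQuenched Q → ∀ ℓ : Fin d → ℝ, ℓ ≠ 0 →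
        (Q ∘ₘ envLaw μ) (Escape ℓ) = 0 ∨ (Q ∘ₘ envLaw μ) (Escape ℓ) = 1 :=
  ⟨exists_quenched d, fun μ _ hμ Q hQ ℓ hℓ => zero_one hd μ hμ Q hQ ℓ hℓ⟩

end Vale.Agent.Results.P147.ZeroOne
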